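import Vale.Agent.Lib.P074b.Defs

open MeasureTheory ENNReal
open scoped NNReal

namespace Vale.Agent.Lib.P074b

/-- two-valued map -/
noncomputable def cellMap {d : ℕ} (b : E d) (c : ℝ) : E d → E d :=
  fun x => if c < inner ℝ x b then b else 0

lemma measurable_cellMap {d : ℕ} (b : E d) (c : ℝ) : Measurable (cellMap b c) := by
  unfold cellMap
  refine Measurable.ite ?_ measurable_const measurable_const
  exact measurableSet_lt measurable_const (by fun_prop)

lemma enorm_sq_eq {d : ℕ} (z : E d) : ‖z‖ₑ ^ 2 = ENNReal.ofReal (‖z‖ ^ 2) := by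
  rw [← ofReal_norm, ENNReal.ofReal_pow (norm_nonneg _)]

lemma cellMap_pointwise {d : ℕ} (b : E d) (c : ℝ) (hb : b ≠ 0) (hc : ‖b‖ ^ 2 ≤ 2 * c)
    (x y : E d) (hy : y = 0 ∨ y = b) :
    ‖x - cellMap b c x‖ₑ ^ 2 + (if cellMap b c x = b then ENNReal.ofReal (2 * c - ‖b‖ ^ 2) else 0)
      ≤ ‖x - y‖ₑ ^ 2 + (if y = b then ENNReal.ofReal (2 * c - ‖b‖ ^ 2) else 0) := by
  have hb' : (0 : E d) ≠ b := fun h => hb h.symm
  unfold cellMap
  by_cases h : c < inner ℝ x b
  · rcases hy with rfl | rfl
    · simp only [h, if_true, if_neg hb', sub_zero, add_zero]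
      rw [enorm_sq_eq, enorm_sq_eq, ← ENNReal.ofReal_add (by positivity) (by linarith)]
      apply ENNReal.ofReal_le_ofReal
      rw [norm_sub_sq_real]
      linarith
    · simp [h]
  · rcases hy with rfl | rfl
    · simp [h]
    · simp only [h, if_false, if_true, if_neg hb', sub_zero, add_zero]
      rw [enorm_sq_eq, enorm_sq_eq, ← ENNReal.ofReal_add (by positivity) (by linarith)]
      apply ENNReal.ofReal_le_ofReal
      rw [norm_sub_sq_real]
      linarith

lemma isOTMap_cellMap {d : ℕ} (ρ : Measure (E d)) [IsFiniteMeasure ρ] (b : E d) (c : ℝ)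
    (hb : b ≠ 0) (hc : ‖b‖ ^ 2 ≤ 2 * c) :
    IsOTMap ρ (ρ.map (cellMap b c)) (cellMap b c) := by
  refine ⟨measurable_cellMap b c, rfl, ?_⟩
  intro S hS hmap
  simp only [← enorm_sq_eq]
  set T := cellMap b c with hT
  have hTm : Measurable T := measurable_cellMap b c
  set g : E d → ℝ≥0∞ := fun y => if y = b then ENNReal.ofReal (2 * c - ‖b‖ ^ 2) else 0 with hg
  have hgm : Measurable g := by
    refine Measurable.ite ?_ measurable_const measurable_const
    exact measurableSet_eq
  -- S takes values in {0,b} a.e.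
  have hSae : ∀ᵐ x ∂ρ, S x = 0 ∨ S x = b := by
    have h1 : (ρ.map T) {y | ¬ (y = 0 ∨ y = b)} = 0 := by
      rw [Measure.map_apply hTm]
      · have : T ⁻¹' {y | ¬ (y = 0 ∨ y = b)} = ∅ := by
          ext x
          simp only [Set.mem_preimage, Set.mem_ofPred_eq, Set.mem_empty_iff_false, iff_false, not_not]
          simp only [hT, cellMap]
          split_ifs <;> simp
        rw [this]; simp
      · have : {y : E d | ¬ (y = 0 ∨ y = b)} = ({0, b} : Set (E d))ᶜ := by
          ext y; simp
        rw [this]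
        exact (Set.toFinite _).measurableSet.compl
    rw [← hmap, Measure.map_apply hS] at h1
    · exact h1
    · have : {y : E d | ¬ (y = 0 ∨ y = b)} = ({0, b} : Set (E d))ᶜ := by
        ext y; simp
      rw [this]
      exact (Set.toFinite _).measurableSet.compl
  have hkey : ∫⁻ x, (‖x - T x‖ₑ ^ 2 + g (T x)) ∂ρ ≤ ∫⁻ x, (‖x - S x‖ₑ ^ 2 + g (S x)) ∂ρ := by
    apply lintegral_mono_ae
    filter_upwards [hSae] with x hx
    exact cellMap_pointwise b c hb hc x (S x) hx
  have hgT : Measurable (fun x => g (T x)) := hgm.comp hTm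
  have hgS : Measurable (fun x => g (S x)) := hgm.comp hS
  rw [lintegral_add_right _ hgT, lintegral_add_right _ hgS] at hkey
  have h2 : ∫⁻ x, g (T x) ∂ρ = ∫⁻ x, g (S x) ∂ρ := by
    rw [← lintegral_map hgm hTm, ← lintegral_map hgm hS, hmap]
  have h3 : ∫⁻ x, g (S x) ∂ρ ≠ ∞ := by
    have : ∫⁻ x, g (S x) ∂ρ ≤ ∫⁻ _, ENNReal.ofReal (2 * c - ‖b‖ ^ 2) ∂ρ := by
      apply lintegral_mono
      intro x
      simp only [hg]
      split_ifs <;> simp
    refine ne_top_of_le_ne_top ?_ this
    rw [lintegral_const]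
    exact ENNReal.mul_ne_top ENNReal.ofReal_ne_top (measure_ne_top _ _)
  rw [h2] at hkey
  exact (ENNReal.add_le_add_iff_right h3).mp hkey

lemma W2_le {d : ℕ} (ρ : Measure (E d)) (f g : E d → E d) (hf : Measurable f) (hg : Measurable g) :
    W2 (ρ.map f) (ρ.map g) ≤ (∫⁻ x, ‖f x - g x‖ₑ ^ 2 ∂ρ) ^ (1 / 2 : ℝ) := by
  unfold W2
  apply ENNReal.rpow_le_rpow _ (by norm_num)
  refine iInf_le_of_le (ρ.map (fun x => (f x, g x))) ?_
  refine iInf_le_of_le ⟨Measure.fst_map_prodMk hg, Measure.snd_map_prodMk hf⟩ ?_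
  simp only [← enorm_sq_eq]
  rw [lintegral_map (by fun_prop) (by fun_prop)]

lemma eLpNorm_ge {d : ℕ} (ρ : Measure (E d)) (f : E d → E d) (B : Set (E d)) (hB : MeasurableSet B)
    (h : ∀ x ∈ B, 1 ≤ ‖f x‖) : (ρ B) ^ (1 / 2 : ℝ) ≤ eLpNorm f 2 ρ := by
  rw [eLpNorm_eq_lintegral_rpow_enorm_toReal (by norm_num) (by norm_num)]
  simp only [ENNReal.toReal_ofNat]
  apply ENNReal.rpow_le_rpow _ (by norm_num)
  rw [← lintegral_indicator_one hB]
  apply lintegral_mono
  intro x
  by_cases hx : x ∈ B
  · simp only [Set.indicator_of_mem hx, Pi.one_apply]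
    apply ENNReal.one_le_rpow _ (by norm_num)
    rw [← ofReal_norm]
    exact ENNReal.one_le_ofReal.mpr (h x hx)
  · simp [Set.indicator_of_notMem hx]


/-- coordinate box -/
def box {d : ℕ} (I : Fin d → Set ℝ) : Set (E d) := {x | ∀ i, x i ∈ I i}

lemma box_eq_preimage {d : ℕ} (I : Fin d → Set ℝ) :
    box I = (WithLp.ofLp : E d → (Fin d → ℝ)) ⁻¹' (Set.pi Set.univ I) := by
  ext x; simp [box]

lemma measurableSet_box {d : ℕ} (I : Fin d → Set ℝ) (hI : ∀ i, MeasurableSet (I i)) :
    MeasurableSet (box I) := by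
  rw [box_eq_preimage]
  exact (PiLp.volume_preserving_ofLp (Fin d)).measurable (MeasurableSet.univ_pi hI)

lemma volume_box {d : ℕ} (I : Fin d → Set ℝ) (hI : ∀ i, MeasurableSet (I i)) :
    volume (box I) = ∏ i, volume (I i) := by
  rw [box_eq_preimage, (PiLp.volume_preserving_ofLp (Fin d)).measure_preimage
    (MeasurableSet.univ_pi hI).nullMeasurableSet, volume_pi_pi]

/-- the unit cube -/
def cube (d : ℕ) : Set (E d) := box (fun _ => Set.Icc (0 : ℝ) 1)

lemma volume_cube (d : ℕ) : volume (cube d) = 1 := by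
  unfold cube
  rw [volume_box _ (fun _ => measurableSet_Icc)]
  simp

lemma unif_cube (d : ℕ) : unif (cube d) = volume.restrict (cube d) := by
  unfold unif
  rw [volume_cube]; simp

lemma unif_cube_box {d : ℕ} (I : Fin d → Set ℝ) (hI : ∀ i, MeasurableSet (I i))
    (hsub : ∀ i, I i ⊆ Set.Icc (0 : ℝ) 1) : unif (cube d) (box I) = ∏ i, volume (I i) := by
  rw [unif_cube, Measure.restrict_apply (measurableSet_box I hI), ← volume_box I hI]
  congr 1
  apply Set.inter_eq_left.mpr
  intro x hx i
  exact hsub i (hx i)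

instance (d : ℕ) : IsProbabilityMeasure (unif (cube d)) := by
  constructor
  rw [unif_cube, Measure.restrict_apply MeasurableSet.univ, Set.univ_inter, volume_cube]

lemma isCompact_cube (d : ℕ) : IsCompact (cube d) := by
  have h : cube d = (WithLp.toLp 2 : (Fin d → ℝ) → E d) '' (Set.pi Set.univ (fun _ => Set.Icc (0 : ℝ) 1)) := by
    ext x
    constructor
    · intro hx
      exact ⟨WithLp.ofLp x, fun i _ => hx i, rfl⟩
    · rintro ⟨y, hy, rfl⟩
      exact fun i => hy i (Set.mem_univ i)
  rw [h]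
  exact (isCompact_univ_pi (fun _ => isCompact_Icc)).image (PiLp.continuous_toLp 2 _)

lemma convex_cube (d : ℕ) : Convex ℝ (cube d) := by
  intro x hx y hy a b ha hb hab i
  have h1 := hx i
  have h2 := hy i
  have : (a • x + b • y) i = a * x i + b * y i := by simp
  rw [this]
  exact (convex_Icc (0 : ℝ) 1) h1 h2 ha hb hab

lemma interior_cube_nonempty (d : ℕ) : (interior (cube d)).Nonempty := by
  have hopen : IsOpen (box (d := d) (fun _ => Set.Ioo (0 : ℝ) 1)) := by
    rw [box_eq_preimage]
    exact (isOpen_set_pi Set.finite_univ (fun _ _ => isOpen_Ioo)).preimage (PiLp.continuous_ofLp 2 _)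
  have hsub : box (d := d) (fun _ => Set.Ioo (0 : ℝ) 1) ⊆ cube d := by
    intro x hx i
    exact Set.Ioo_subset_Icc_self (hx i)
  refine ⟨WithLp.toLp 2 (fun _ => (1 / 2 : ℝ)), interior_maximal hsub hopen ?_⟩
  intro i
  constructor <;> norm_num

/-- reflection of the coordinate `i0` about `1/2` -/
noncomputable def refl {d : ℕ} (i0 : Fin d) : E d → E d :=
  fun x => WithLp.toLp 2 (fun i => if i = i0 then 1 - x i else x i)

lemma measurePreserving_refl {d : ℕ} (i0 : Fin d) :
    MeasurePreserving (refl i0) (volume : Measure (E d)) volume := by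
  have h1 : MeasurePreserving (fun (a : Fin d → ℝ) i => (fun (s : ℝ) => if i = i0 then 1 - s else s) (a i))
      volume volume := by
    refine volume_preserving_pi (f := fun (i : Fin d) (s : ℝ) => if i = i0 then 1 - s else s) ?_
    intro i
    by_cases h : i = i0
    · simp only [h, if_true]
      exact Measure.measurePreserving_sub_left volume 1
    · simp only [h, if_false]
      exact MeasurePreserving.id _
  exact (PiLp.volume_preserving_toLp (Fin d)).comp (h1.comp (PiLp.volume_preserving_ofLp (Fin d)))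

lemma refl_preimage_cube {d : ℕ} (i0 : Fin d) : refl i0 ⁻¹' (cube d) = cube d := by
  ext x
  simp only [Set.mem_preimage, cube, box, refl, Set.mem_ofPred_eq, Set.mem_Icc]
  constructor
  · intro h i
    have := h i
    by_cases hi : i = i0
    · simp only [hi, if_true] at this
      subst hi
      constructor <;> linarith [this.1, this.2]
    · simpa only [hi, if_false] using this
  · intro h i
    have := h i
    by_cases hi : i = i0
    · simp only [hi, if_true]
      subst hi
      constructor <;> linarith [this.1, this.2]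
    · simpa only [hi, if_false] using this

lemma measurePreserving_refl_unif {d : ℕ} (i0 : Fin d) :
    MeasurePreserving (refl i0) (unif (cube d)) (unif (cube d)) := by
  rw [unif_cube]
  have := (measurePreserving_refl i0).restrict_preimage
    (measurableSet_box (d := d) (fun _ => Set.Icc (0 : ℝ) 1) (fun _ => measurableSet_Icc))
  rw [show box (d := d) (fun _ => Set.Icc (0 : ℝ) 1) = cube d from rfl, refl_preimage_cube] at this
  exact this


end Vale.Agent.Lib.P074b
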