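import Mathlib

/-!
Definitions for the stability exponent of quadratic optimal transport maps.
-/

open MeasureTheory ENNReal
open scoped NNReal

namespace Vale.Agent.Lib.P074b

/-- Euclidean space of dimension `d`, with the Euclidean norm. -/
abbrev E (d : ℕ) := EuclideanSpace ℝ (Fin d)

/-- The uniform probability measure `|K|⁻¹ 1_K dx` on `K`. -/
noncomputable def unif {d : ℕ} (K : Set (E d)) : Measure (E d) :=
  (volume K)⁻¹ • volume.restrict K

/-- `T` is a quadratic optimal transport map from `ρ` to `μ`: a Borel map pushing `ρ` to `μ`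
that minimizes the quadratic cost among all Borel maps pushing `ρ` to `μ`. -/
def IsOTMap {d : ℕ} (ρ μ : Measure (E d)) (T : E d → E d) : Prop :=
  Measurable T ∧ ρ.map T = μ ∧
    ∀ S : E d → E d, Measurable S → ρ.map S = μ →
      ∫⁻ x, ENNReal.ofReal (‖x - T x‖ ^ 2) ∂ρ ≤ ∫⁻ x, ENNReal.ofReal (‖x - S x‖ ^ 2) ∂ρ

/-- The quadratic Wasserstein distance: the square root of the infimum of the quadratic cost
over all couplings of `μ` and `ν`. -/
noncomputable def W2 {d : ℕ} (μ ν : Measure (E d)) : ℝ≥0∞ :=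
  (⨅ π : Measure (E d × E d), ⨅ _ : π.fst = μ ∧ π.snd = ν,
    ∫⁻ p, ENNReal.ofReal (‖p.1 - p.2‖ ^ 2) ∂π) ^ (1 / 2 : ℝ)

/-- The exponent `α ∈ (0,1]` is admissible in dimension `d`: for every compact convex `K` with
nonempty interior and every nonempty compact `Y` there is a finite constant `C` with
`‖T_μ - T_ν‖_{L²(ρ)} ≤ C W₂(μ,ν)^α` for all Borel probability measures `μ, ν` supported in `Y`,
where `ρ` is uniform on `K` and `T_μ, T_ν` are the optimal transport maps from `ρ`. -/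
def Admissible (d : ℕ) (α : ℝ) : Prop :=
  0 < α ∧ α ≤ 1 ∧
  ∀ K : Set (E d), IsCompact K → Convex ℝ K → (interior K).Nonempty →
  ∀ Y : Set (E d), IsCompact Y → Y.Nonempty →
  ∃ C : ℝ≥0, ∀ μ ν : Measure (E d), IsProbabilityMeasure μ → IsProbabilityMeasure ν →
    (∀ᵐ y ∂μ, y ∈ Y) → (∀ᵐ y ∂ν, y ∈ Y) →
    ∀ Tμ Tν : E d → E d, IsOTMap (unif K) μ Tμ → IsOTMap (unif K) ν Tν →
      eLpNorm (fun x => Tμ x - Tν x) 2 (unif K) ≤ C * W2 μ ν ^ α

end Vale.Agent.Lib.P074b
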