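import Vale.Agent.Lib.P074b.Basic

open MeasureTheory ENNReal
open scoped NNReal

namespace Vale.Agent.Lib.P074b

/-- the vector with coordinate `s` at `i0`, `1` at `i1`, and `0` elsewhere -/
noncomputable def vec {d : ℕ} (i0 i1 : Fin d) (s : ℝ) : E d :=
  WithLp.toLp 2 (fun i => if i = i0 then s else if i = i1 then 1 else 0)

lemma inner_vec {d : ℕ} (i0 i1 : Fin d) (h01 : i0 ≠ i1) (s : ℝ) (x : E d) :
    inner ℝ x (vec i0 i1 s) = s * x i0 + x i1 := by
  rw [PiLp.inner_apply]
  rw [Fintype.sum_eq_add i0 i1 h01]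
  · simp [vec, h01.symm]
  · rintro i ⟨h0, h1⟩
    simp [vec, h0, h1]

lemma norm_vec_sq {d : ℕ} (i0 i1 : Fin d) (h01 : i0 ≠ i1) (s : ℝ) :
    ‖vec i0 i1 s‖ ^ 2 = s ^ 2 + 1 := by
  rw [← real_inner_self_eq_norm_sq, inner_vec i0 i1 h01]
  simp [vec, h01.symm]
  ring

lemma vec_ne_zero {d : ℕ} (i0 i1 : Fin d) (h01 : i0 ≠ i1) (s : ℝ) : vec i0 i1 s ≠ 0 := by
  intro h
  have := norm_vec_sq i0 i1 h01 s
  rw [h] at this
  simp at this
  nlinarith [sq_nonneg s]

lemma one_le_norm_vec {d : ℕ} (i0 i1 : Fin d) (h01 : i0 ≠ i1) (s : ℝ) : 1 ≤ ‖vec i0 i1 s‖ := by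
  have := norm_vec_sq i0 i1 h01 s
  nlinarith [sq_nonneg s, norm_nonneg (vec i0 i1 s)]

lemma norm_vec_le_two {d : ℕ} (i0 i1 : Fin d) (h01 : i0 ≠ i1) (s : ℝ) (hs : s ^ 2 ≤ 1) :
    ‖vec i0 i1 s‖ ≤ 2 := by
  have := norm_vec_sq i0 i1 h01 s
  nlinarith [norm_nonneg (vec i0 i1 s)]

lemma norm_vec_sub_sq {d : ℕ} (i0 i1 : Fin d) (h01 : i0 ≠ i1) (t : ℝ) :
    ‖vec i0 i1 t - vec i0 i1 (-t)‖ ^ 2 = 4 * t ^ 2 := by
  rw [norm_sub_sq_real, norm_vec_sq i0 i1 h01, norm_vec_sq i0 i1 h01, inner_vec i0 i1 h01]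
  simp [vec, h01.symm]
  ring

lemma inner_refl_vec {d : ℕ} (i0 i1 : Fin d) (h01 : i0 ≠ i1) (t : ℝ) (x : E d) :
    inner ℝ (refl i0 x) (vec i0 i1 (-t)) = t * x i0 + x i1 - t := by
  rw [inner_vec i0 i1 h01]
  simp [refl, h01.symm]
  ring

/-- composing the second map with the reflection -/
lemma cellMap_refl {d : ℕ} (i0 i1 : Fin d) (h01 : i0 ≠ i1) (t : ℝ) (x : E d) :
    cellMap (vec i0 i1 (-t)) (1 - t) (refl i0 x) =
      if 1 < inner ℝ x (vec i0 i1 t) then vec i0 i1 (-t) else 0 := by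
  unfold cellMap
  rw [inner_refl_vec i0 i1 h01, inner_vec i0 i1 h01]
  by_cases h : 1 < t * x i0 + x i1
  · rw [if_pos h, if_pos (by linarith)]
  · rw [if_neg h, if_neg (by linarith)]

/-- the box on which the two maps differ by a vector of norm at least one -/
def boxB {d : ℕ} (i0 i1 : Fin d) (t : ℝ) : Set (E d) :=
  box (fun i => if i = i0 then Set.Icc (3 / 4 : ℝ) 1
    else if i = i1 then Set.Ioc (1 - 3 * t / 4) (1 - t / 4) else Set.Icc (0 : ℝ) 1)

/-- the strip containing the small cell -/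
def strip {d : ℕ} (i1 : Fin d) (t : ℝ) : Set (E d) :=
  box (fun i => if i = i1 then Set.Ioc (1 - t) 1 else Set.Icc (0 : ℝ) 1)

lemma measurableSet_boxB {d : ℕ} (i0 i1 : Fin d) (t : ℝ) : MeasurableSet (boxB i0 i1 t) := by
  apply measurableSet_box
  intro i
  split_ifs
  · exact measurableSet_Icc
  · exact measurableSet_Ioc
  · exact measurableSet_Icc

lemma measurableSet_strip {d : ℕ} (i1 : Fin d) (t : ℝ) : MeasurableSet (strip i1 t) := by
  apply measurableSet_box
  intro i
  split_ifs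
  · exact measurableSet_Ioc
  · exact measurableSet_Icc

lemma unif_boxB {d : ℕ} (i0 i1 : Fin d) (h01 : i0 ≠ i1) (t : ℝ) (ht0 : 0 < t) (ht1 : t ≤ 1) :
    unif (cube d) (boxB i0 i1 t) = ENNReal.ofReal (t / 8) := by
  unfold boxB
  rw [unif_cube_box]
  · rw [Fintype.prod_eq_mul i0 i1 h01]
    · simp only [if_true, if_neg h01.symm, Real.volume_Icc, Real.volume_Ioc]
      rw [← ENNReal.ofReal_mul (by norm_num)]
      congr 1
      ring
    · rintro i ⟨h0, h1⟩
      simp [h0, h1]
  · intro i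
    split_ifs
    · exact measurableSet_Icc
    · exact measurableSet_Ioc
    · exact measurableSet_Icc
  · intro i
    split_ifs
    · exact Set.Icc_subset_Icc (by norm_num) le_rfl
    · intro y hy
      exact ⟨by linarith [hy.1], by linarith [hy.2]⟩
    · exact subset_rfl

lemma unif_strip {d : ℕ} (i1 : Fin d) (t : ℝ) (ht0 : 0 < t) (ht1 : t ≤ 1) :
    unif (cube d) (strip i1 t) = ENNReal.ofReal t := by
  unfold strip
  rw [unif_cube_box]
  · rw [Fintype.prod_eq_single i1]
    · simp only [if_true, Real.volume_Ioc]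
      congr 1
      ring
    · intro i h1
      simp [h1]
  · intro i
    split_ifs
    · exact measurableSet_Ioc
    · exact measurableSet_Icc
  · intro i
    split_ifs
    · intro y hy
      exact ⟨by linarith [hy.1], hy.2⟩
    · exact subset_rfl

/-- lower bound for the distance of the two maps -/
lemma dist_maps_ge {d : ℕ} (i0 i1 : Fin d) (h01 : i0 ≠ i1) (t : ℝ) (ht0 : 0 < t) (ht1 : t ≤ 1) :
    (ENNReal.ofReal (t / 8)) ^ (1 / 2 : ℝ) ≤
      eLpNorm (fun x => cellMap (vec i0 i1 t) 1 x - cellMap (vec i0 i1 (-t)) (1 - t) x) 2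
        (unif (cube d)) := by
  rw [← unif_boxB i0 i1 h01 t ht0 ht1]
  apply eLpNorm_ge _ _ _ (measurableSet_boxB i0 i1 t)
  intro x hx
  have h0 : x i0 ∈ Set.Icc (3 / 4 : ℝ) 1 := by
    have := hx i0
    simpa using this
  have h1 : x i1 ∈ Set.Ioc (1 - 3 * t / 4) (1 - t / 4) := by
    have := hx i1
    simpa [h01.symm] using this
  have e1 : cellMap (vec i0 i1 t) 1 x = vec i0 i1 t := by
    unfold cellMap
    rw [inner_vec i0 i1 h01, if_pos]
    nlinarith [h0.1, h1.1]
  have e2 : cellMap (vec i0 i1 (-t)) (1 - t) x = 0 := by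
    unfold cellMap
    rw [inner_vec i0 i1 h01, if_neg]
    nlinarith [h0.1, h1.2]
  rw [e1, e2, sub_zero]
  exact one_le_norm_vec i0 i1 h01 t

/-- upper bound for the Wasserstein distance of the two targets -/
lemma W2_targets_le {d : ℕ} (i0 i1 : Fin d) (h01 : i0 ≠ i1) (t : ℝ) (ht0 : 0 < t) (ht1 : t ≤ 1) :
    W2 ((unif (cube d)).map (cellMap (vec i0 i1 t) 1))
       ((unif (cube d)).map (cellMap (vec i0 i1 (-t)) (1 - t))) ≤
      (ENNReal.ofReal (4 * t ^ 3)) ^ (1 / 2 : ℝ) := by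
  have hm1 := measurable_cellMap (vec i0 i1 t) 1
  have hm2 := measurable_cellMap (vec i0 i1 (-t)) (1 - t)
  have hR := measurePreserving_refl_unif (d := d) i0
  have hmap : (unif (cube d)).map (cellMap (vec i0 i1 (-t)) (1 - t)) =
      (unif (cube d)).map (fun x => cellMap (vec i0 i1 (-t)) (1 - t) (refl i0 x)) := by
    conv_lhs => rw [← hR.map_eq]
    rw [Measure.map_map hm2 hR.measurable]
    rfl
  rw [hmap]
  refine (W2_le _ _ _ hm1 (hm2.comp hR.measurable)).trans ?_
  apply ENNReal.rpow_le_rpow _ (by norm_num)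
  have hae : ∀ᵐ x ∂(unif (cube d)), x ∈ cube d := by
    rw [unif_cube]
    exact ae_restrict_mem (measurableSet_box _ (fun _ => measurableSet_Icc))
  calc ∫⁻ x, ‖cellMap (vec i0 i1 t) 1 x - cellMap (vec i0 i1 (-t)) (1 - t) (refl i0 x)‖ₑ ^ 2
        ∂(unif (cube d))
      ≤ ∫⁻ x, (strip i1 t).indicator (fun _ => ENNReal.ofReal (4 * t ^ 2)) x ∂(unif (cube d)) := by
        apply lintegral_mono_ae
        filter_upwards [hae] with x hx
        rw [cellMap_refl i0 i1 h01]
        unfold cellMap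
        by_cases h : 1 < inner ℝ x (vec i0 i1 t)
        · have hxs : x ∈ strip i1 t := by
            intro i
            by_cases hi : i = i1
            · subst hi
              simp only [if_true]
              rw [inner_vec i0 i h01] at h
              have h0 := hx i0
              have h1 := hx i
              exact ⟨by nlinarith [h0.1, h0.2], h1.2⟩
            · simp only [hi, if_false]
              exact hx i
          rw [if_pos h, if_pos h, Set.indicator_of_mem hxs, enorm_sq_eq, norm_vec_sub_sq i0 i1 h01]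
        · rw [if_neg h, if_neg h]
          simp
    _ = ENNReal.ofReal (4 * t ^ 2) * unif (cube d) (strip i1 t) := by
        rw [lintegral_indicator_const (measurableSet_strip i1 t)]
    _ = ENNReal.ofReal (4 * t ^ 3) := by
        rw [unif_strip i1 t ht0 ht1, ← ENNReal.ofReal_mul (by positivity)]
        congr 1
        ring

end Vale.Agent.Lib.P074b
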