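import Vale.Agent.Lib.P074b.Example

open MeasureTheory ENNReal
open scoped NNReal

namespace Vale.Agent.Lib.P074b

lemma map_cellMap_support {d : ℕ} (ρ : Measure (E d)) (b : E d) (c : ℝ) (hb : ‖b‖ ≤ 2) :
    ∀ᵐ y ∂(ρ.map (cellMap b c)), y ∈ Metric.closedBall (0 : E d) 2 := by
  refine (ae_map_iff (measurable_cellMap b c).aemeasurable
    (Metric.isClosed_closedBall (x := (0 : E d)) (ε := 2)).measurableSet).mpr ?_
  refine Filter.Eventually.of_forall fun x => ?_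
  simp only [Metric.mem_closedBall, dist_zero_right]
  unfold cellMap
  split_ifs
  · exact hb
  · simp

/-- a purely real-variable contradiction -/
lemma real_contra (C α : ℝ) (hC : 0 ≤ C) (hα : 1 / 3 < α) (hα1 : α ≤ 1)
    (h : ∀ t : ℝ, 0 < t → t ≤ 1 / 4 → (t / 8) ^ (1 / 2 : ℝ) ≤ C * ((4 * t ^ 3) ^ (1 / 2 : ℝ)) ^ α) :
    False := by
  set γ : ℝ := 3 * α - 1 with hγ
  have hγ0 : 0 < γ := by rw [hγ]; linarith
  set M : ℝ := 32 * C ^ 2 + 1 with hM
  have hM0 : 0 < M := by rw [hM]; positivity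
  set t : ℝ := min (1 / 4) ((1 / M) ^ (1 / γ)) with ht
  have ht0 : 0 < t := by
    rw [ht]
    exact lt_min (by norm_num) (Real.rpow_pos_of_pos (by positivity) _)
  have ht1 : t ≤ 1 / 4 := min_le_left _ _
  have htγ : t ^ γ ≤ 1 / M := by
    calc t ^ γ ≤ ((1 / M) ^ (1 / γ)) ^ γ :=
          Real.rpow_le_rpow ht0.le (min_le_right _ _) hγ0.le
      _ = 1 / M := by
          rw [← Real.rpow_mul (by positivity), one_div_mul_cancel hγ0.ne', Real.rpow_one]
  have h1 := h t ht0 ht1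
  have h2 : ((t / 8) ^ (1 / 2 : ℝ)) ^ 2 ≤ (C * ((4 * t ^ 3) ^ (1 / 2 : ℝ)) ^ α) ^ 2 :=
    pow_le_pow_left₀ (by positivity) h1 2
  have e1 : ((t / 8) ^ (1 / 2 : ℝ)) ^ 2 = t / 8 := by
    rw [← Real.rpow_natCast, ← Real.rpow_mul (by positivity)]
    norm_num
  have e2 : (C * ((4 * t ^ 3) ^ (1 / 2 : ℝ)) ^ α) ^ 2 = C ^ 2 * (4 * t ^ 3) ^ α := by
    rw [mul_pow]
    congr 1
    rw [← Real.rpow_natCast, ← Real.rpow_mul (by positivity), ← Real.rpow_mul (by positivity)]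
    congr 1
    push_cast
    ring
  have e3 : (4 * t ^ 3) ^ α ≤ 4 * (t * t ^ γ) := by
    rw [Real.mul_rpow (by norm_num) (by positivity)]
    have a1 : (4 : ℝ) ^ α ≤ 4 := by
      calc (4 : ℝ) ^ α ≤ (4 : ℝ) ^ (1 : ℝ) := Real.rpow_le_rpow_of_exponent_le (by norm_num) hα1
        _ = 4 := Real.rpow_one 4
    have a2 : (t ^ 3) ^ α = t * t ^ γ := by
      rw [← Real.rpow_natCast, ← Real.rpow_mul ht0.le]
      have : ((3 : ℕ) : ℝ) * α = 1 + γ := by rw [hγ]; push_cast; ring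
      rw [this, Real.rpow_add ht0, Real.rpow_one]
    rw [a2]
    exact mul_le_mul_of_nonneg_right a1 (by positivity)
  rw [e1, e2] at h2
  have h3 : t / 8 ≤ C ^ 2 * (4 * (t * (1 / M))) := by
    refine h2.trans ?_
    apply mul_le_mul_of_nonneg_left _ (by positivity)
    refine e3.trans ?_
    apply mul_le_mul_of_nonneg_left _ (by norm_num)
    exact mul_le_mul_of_nonneg_left htγ ht0.le
  have h4 : 1 / 8 ≤ C ^ 2 * 4 / M := by
    have : t * (1 / 8) ≤ t * (C ^ 2 * 4 / M) := by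
      calc t * (1 / 8) = t / 8 := by ring
        _ ≤ C ^ 2 * (4 * (t * (1 / M))) := h3
        _ = t * (C ^ 2 * 4 / M) := by ring
    exact le_of_mul_le_mul_left this ht0
  rw [le_div_iff₀ hM0, hM] at h4
  linarith

/-- No exponent above `1/3` is admissible. -/
theorem admissible_le {d : ℕ} (hd : 2 ≤ d) {α : ℝ} (h : Admissible d α) : α ≤ 1 / 3 := by
  by_contra hα
  push Not at hα
  obtain ⟨_, hα1, hK⟩ := h
  let i0 : Fin d := ⟨0, by omega⟩
  let i1 : Fin d := ⟨1, by omega⟩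
  have h01 : i0 ≠ i1 := by simp [i0, i1, Fin.ext_iff]
  obtain ⟨C, hC⟩ := hK (cube d) (isCompact_cube d) (convex_cube d) (interior_cube_nonempty d)
    (Metric.closedBall 0 2) (isCompact_closedBall 0 2) ⟨0, by simp⟩
  apply real_contra (C : ℝ) α C.coe_nonneg hα hα1
  intro t ht0 ht1
  have ht1' : t ≤ 1 := by linarith
  have hm1 := measurable_cellMap (vec i0 i1 t) 1
  have hm2 := measurable_cellMap (vec i0 i1 (-t)) (1 - t)
  have hmain := hC ((unif (cube d)).map (cellMap (vec i0 i1 t) 1))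
    ((unif (cube d)).map (cellMap (vec i0 i1 (-t)) (1 - t)))
    (Measure.isProbabilityMeasure_map hm1.aemeasurable)
    (Measure.isProbabilityMeasure_map hm2.aemeasurable)
    (map_cellMap_support _ _ _ (norm_vec_le_two i0 i1 h01 t (by nlinarith)))
    (map_cellMap_support _ _ _ (norm_vec_le_two i0 i1 h01 (-t) (by nlinarith)))
    (cellMap (vec i0 i1 t) 1) (cellMap (vec i0 i1 (-t)) (1 - t))
    (isOTMap_cellMap _ _ _ (vec_ne_zero i0 i1 h01 t)
      (by rw [norm_vec_sq i0 i1 h01]; nlinarith))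
    (isOTMap_cellMap _ _ _ (vec_ne_zero i0 i1 h01 (-t))
      (by rw [norm_vec_sq i0 i1 h01]; nlinarith))
  have hchain : (ENNReal.ofReal (t / 8)) ^ (1 / 2 : ℝ) ≤
      (C : ℝ≥0∞) * ((ENNReal.ofReal (4 * t ^ 3)) ^ (1 / 2 : ℝ)) ^ α := by
    refine (dist_maps_ge i0 i1 h01 t ht0 ht1').trans (hmain.trans ?_)
    gcongr
    exact W2_targets_le i0 i1 h01 t ht0 ht1'
  rw [ENNReal.ofReal_rpow_of_pos (by positivity), ENNReal.ofReal_rpow_of_pos (by positivity),
    ENNReal.ofReal_rpow_of_pos (by positivity), ← ENNReal.ofReal_coe_nnreal,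
    ← ENNReal.ofReal_mul C.coe_nonneg] at hchain
  exact (ENNReal.ofReal_le_ofReal_iff (by positivity)).mp hchain

end Vale.Agent.Lib.P074b
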